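import Mathlib

namespace Vale.Agent.Lib.P049

/-- A finite simple graph `G` is a `d`-regular *Ramanujan graph* if it is `d`-regular and every
nonconstant eigenvalue `μ` of its adjacency matrix (an eigenvalue with a nonzero eigenvector
orthogonal to the all-ones vector) satisfies `|μ| ≤ 2 √(d - 1)`. -/
def IsRamanujan {V : Type*} [Fintype V] [DecidableEq V] (G : SimpleGraph V)
    [DecidableRel G.Adj] (d : ℕ) : Prop :=
  G.IsRegularOfDegree d ∧
    ∀ (μ : ℝ) (v : V → ℝ), v ≠ 0 → ∑ i, v i = 0 →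
      (G.adjMatrix ℝ).mulVec v = μ • v → |μ| ≤ 2 * Real.sqrt ((d : ℝ) - 1)

end Vale.Agent.Lib.P049
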