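import Vale.Agent.Lib.P049.Defs

namespace Vale.Agent.Lib.P049

open Finset

/-- For a `d`-regular graph on `n` vertices, every nonconstant eigenvalue has absolute value at
most `n - d`. -/
lemma abs_eigenvalue_le {V : Type*} [Fintype V] [DecidableEq V] (G : SimpleGraph V)
    [DecidableRel G.Adj] (d : ℕ) (hreg : G.IsRegularOfDegree d)
    (μ : ℝ) (v : V → ℝ) (hv : v ≠ 0) (hsum : ∑ i, v i = 0)
    (hev : (G.adjMatrix ℝ).mulVec v = μ • v) :
    |μ| ≤ (Fintype.card V : ℝ) - d := by
  classical
  have hne : (univ : Finset V).Nonempty := by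
    by_contra h
    rw [Finset.not_nonempty_iff_eq_empty] at h
    apply hv
    funext i
    have : i ∈ (univ : Finset V) := mem_univ i
    rw [h] at this
    simp at this
  obtain ⟨i, -, hi⟩ := Finset.exists_max_image univ (fun j => |v j|) hne
  have hvi : 0 < |v i| := by
    by_contra h
    have h0 : |v i| = 0 := le_antisymm (not_lt.mp h) (abs_nonneg _)
    apply hv
    funext j
    have := hi j (mem_univ j)
    rw [h0] at this
    simpa using abs_nonpos_iff.mp this
  have hrow : ∑ u ∈ G.neighborFinset i, v u = μ * v i := by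
    have := congrFun hev i
    rw [SimpleGraph.adjMatrix_mulVec_apply] at this
    simpa using this
  have hsplit : ∑ u ∈ G.neighborFinset i, v u + ∑ u ∈ univ \ G.neighborFinset i, v u = 0 := by
    rw [← hsum, add_comm]
    exact Finset.sum_sdiff (subset_univ (G.neighborFinset i))
  have hcard : (univ \ G.neighborFinset i).card = Fintype.card V - d := by
    rw [Finset.card_sdiff_of_subset (subset_univ _), Finset.card_univ,
      SimpleGraph.card_neighborFinset_eq_degree, hreg i]
  have hdle : d ≤ Fintype.card V := by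
    have := Finset.card_le_univ (G.neighborFinset i)
    rw [SimpleGraph.card_neighborFinset_eq_degree, hreg i] at this
    exact this
  have hbound : |∑ u ∈ univ \ G.neighborFinset i, v u| ≤ ((Fintype.card V : ℝ) - d) * |v i| := by
    calc |∑ u ∈ univ \ G.neighborFinset i, v u|
        ≤ ∑ u ∈ univ \ G.neighborFinset i, |v u| := Finset.abs_sum_le_sum_abs _ _
      _ ≤ ∑ _u ∈ univ \ G.neighborFinset i, |v i| :=
          Finset.sum_le_sum (fun u _ => hi u (mem_univ u))
      _ = ((Fintype.card V : ℝ) - d) * |v i| := by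
          rw [Finset.sum_const, hcard, nsmul_eq_mul, Nat.cast_sub hdle]
  have hmu : |μ| * |v i| = |∑ u ∈ univ \ G.neighborFinset i, v u| := by
    rw [← abs_mul, ← hrow]
    have : ∑ u ∈ G.neighborFinset i, v u = - ∑ u ∈ univ \ G.neighborFinset i, v u := by
      linarith
    rw [this, abs_neg]
  rw [← hmu] at hbound
  exact le_of_mul_le_mul_right hbound hvi

/-- In the dense window `(n - d)² ≤ 4 (d - 1)` every `d`-regular graph on `n` vertices is a
Ramanujan graph. -/
theorem dense_window {V : Type*} [Fintype V] [DecidableEq V] (G : SimpleGraph V)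
    [DecidableRel G.Adj] (d : ℕ) (hreg : G.IsRegularOfDegree d)
    (hwin : (Fintype.card V - d) ^ 2 ≤ 4 * (d - 1)) : IsRamanujan G d := by
  refine ⟨hreg, fun μ v hv hsum hev => ?_⟩
  have h1 := abs_eigenvalue_le G d hreg μ v hv hsum hev
  classical
  have hdle : d ≤ Fintype.card V := by
    by_cases hV : Nonempty V
    · obtain ⟨i⟩ := hV
      have := Finset.card_le_univ (G.neighborFinset i)
      rw [SimpleGraph.card_neighborFinset_eq_degree, hreg i] at this
      exact this
    · exfalso
      apply hv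
      funext i
      exact (hV ⟨i⟩).elim
  have h2 : ((Fintype.card V : ℝ) - d) ^ 2 ≤ 4 * ((d : ℝ) - 1) := by
    have hc : (((Fintype.card V - d) ^ 2 : ℕ) : ℝ) ≤ ((4 * (d - 1) : ℕ) : ℝ) := by
      exact_mod_cast hwin
    rw [Nat.cast_pow, Nat.cast_sub hdle] at hc
    have h3 : ((4 * (d - 1) : ℕ) : ℝ) ≤ 4 * ((d : ℝ) - 1) ∨ d = 0 := by
      rcases Nat.eq_zero_or_pos d with h | h
      · right; exact h
      · left
        rw [Nat.cast_mul, Nat.cast_sub h]
        simp
    rcases h3 with h3 | h3
    · exact hc.trans h3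
    · subst h3
      simp only [Nat.zero_sub, mul_zero, Nat.cast_zero, sub_zero] at hc
      have : (Fintype.card V : ℝ) ^ 2 = 0 := le_antisymm hc (sq_nonneg _)
      have hV0 : (Fintype.card V : ℝ) = 0 := by simpa using this
      exfalso
      have hcard : Fintype.card V = 0 := by exact_mod_cast hV0
      apply hv
      funext i
      exact ((Fintype.card_eq_zero_iff.mp hcard).false i).elim
  have h4 : 0 ≤ 4 * ((d : ℝ) - 1) := le_trans (sq_nonneg _) h2
  have h5 : |μ| ≤ Real.sqrt (4 * ((d : ℝ) - 1)) := by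
    apply Real.le_sqrt_of_sq_le
    have hμ0 : 0 ≤ |μ| := abs_nonneg μ
    have : |μ| ^ 2 ≤ ((Fintype.card V : ℝ) - d) ^ 2 := by
      apply pow_le_pow_left₀ hμ0 h1
    exact this.trans h2
  have h6 : Real.sqrt (4 * ((d : ℝ) - 1)) = 2 * Real.sqrt ((d : ℝ) - 1) := by
    rw [Real.sqrt_mul (by norm_num : (0 : ℝ) ≤ 4)]
    have : Real.sqrt 4 = 2 := by
      rw [show (4 : ℝ) = 2 ^ 2 by norm_num, Real.sqrt_sq (by norm_num : (0 : ℝ) ≤ 2)]
    rw [this]
  rw [h6] at h5
  exact h5

end Vale.Agent.Lib.P049
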